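import Mathlib
import Vale.Agent.P064.Defs
import Vale.Agent.P064.Main

/-!
# P064: one logarithm better towards the second Kahn–Kalai conjecture

For all `n ≥ 2` and all graphs `H` with at least one edge and at most `n` vertices,
`p̃_E(n,H) ≤ C p_E(n,H) log n` (known: `log² n`) and `p_c(n,H) ≤ C p_E(n,H) log² n`
(known: `log³ n`), and the same with `log n` replaced by `1 + log e(H)`.
-/

namespace Vale.Agent.Results.P064.LogSquared

open Vale.P064

theorem result : ∃ C : ℝ, 0 < C ∧ ∀ (n : ℕ), 2 ≤ n →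
    ∀ (V : Type) [Fintype V] (H : SimpleGraph V), Fintype.card V ≤ n → H ≠ ⊥ →
      pc n H ≤ C * (Real.log n) ^ 2 * pE n H ∧
      pEt n H ≤ C * Real.log n * pE n H ∧
      pc n H ≤ C * (1 + Real.log H.edgeSet.ncard) ^ 2 * pE n H ∧
      pEt n H ≤ C * (1 + Real.log H.edgeSet.ncard) * pE n H := by
  have hK := KK_pos
  refine ⟨1024 * KK, by positivity, ?_⟩
  intro n hn V _ H hV hH
  obtain ⟨h1, h2⟩ := main_edges H hV hH
  have hlog := log_edges_le hn H hV
  have hlog0 : 0 ≤ 1 + Real.log H.edgeSet.ncard := by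
    have : 0 ≤ Real.log (H.edgeSet.ncard : ℝ) := Real.log_natCast_nonneg _
    linarith
  have hpE : 0 ≤ pE n H := Real.sInf_nonneg fun x hx => hx.1
  have hn1 : (1 : ℝ) ≤ n := by
    have : 1 ≤ n := by omega
    exact_mod_cast this
  have hlogn : 0 ≤ Real.log n := Real.log_nonneg hn1
  set Lg := 1 + Real.log (H.edgeSet.ncard : ℝ) with hLg
  refine ⟨?_, ?_, ?_, ?_⟩
  · refine h2.trans (mul_le_mul_of_nonneg_right ?_ hpE)
    have h3 : Lg ^ 2 ≤ (4 * Real.log n) ^ 2 := pow_le_pow_left₀ hlog0 hlog 2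
    calc 64 * KK * Lg ^ 2 ≤ 64 * KK * (4 * Real.log n) ^ 2 :=
          mul_le_mul_of_nonneg_left h3 (by positivity)
      _ = 1024 * KK * (Real.log n) ^ 2 := by ring
  · refine h1.trans (mul_le_mul_of_nonneg_right ?_ hpE)
    calc 2 * KK * Lg ≤ 2 * KK * (4 * Real.log n) :=
          mul_le_mul_of_nonneg_left hlog (by positivity)
      _ = 8 * (KK * Real.log n) := by ring
      _ ≤ 1024 * (KK * Real.log n) := by
          have : 0 ≤ KK * Real.log n := mul_nonneg hK.le hlogn
          linarith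
      _ = 1024 * KK * Real.log n := by ring
  · refine h2.trans (mul_le_mul_of_nonneg_right ?_ hpE)
    have : 0 ≤ KK * Lg ^ 2 := by positivity
    linarith
  · refine h1.trans (mul_le_mul_of_nonneg_right ?_ hpE)
    have : 0 ≤ KK * Lg := mul_nonneg hK.le hlog0
    linarith

end Vale.Agent.Results.P064.LogSquared
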